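import Mathlib

open MeasureTheory Set Metric

namespace Vale.Agent.P141.R2.H792.Lac

/-- The dyadic points together with `0`. -/
def S : Set ℝ := {x | x = 0 ∨ ∃ k : ℤ, |x| = (2:ℝ) ^ k}

/-- the power `t ^ (-1/2)` with values in `[0, ∞]` -/
noncomputable def h (t : ℝ) : ENNReal := ENNReal.ofReal (t ^ (-(1/2 : ℝ)))

/-- the weight -/
noncomputable def w (z : ℝ) : ENNReal := h (infDist z S)

lemma zero_mem : (0:ℝ) ∈ S := Or.inl rfl

lemma nonempty_S : S.Nonempty := ⟨0, zero_mem⟩

lemma h_anti {a t : ℝ} (ha : 0 < a) (hat : a ≤ t) : h t ≤ h a :=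
  ENNReal.ofReal_le_ofReal (Real.rpow_le_rpow_of_nonpos ha hat (by norm_num))

lemma h_zero : h 0 = 0 := by
  unfold h
  rw [Real.zero_rpow (by norm_num), ENNReal.ofReal_zero]

lemma measurable_h : Measurable h :=
  ENNReal.measurable_ofReal.comp (measurable_id.pow_const _)

lemma measurable_habs (s : ℝ) : Measurable (fun z : ℝ => h |z - s|) := by
  apply measurable_h.comp
  exact (measurable_id.sub_const s).abs

lemma int_right {r : ℝ} (hr : 0 < r) :
    ∫⁻ z in Icc (0:ℝ) r, h z = ENNReal.ofReal (2 * r ^ (1/2 : ℝ)) := by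
  have hint : IntervalIntegrable (fun x : ℝ => x ^ (-(1/2:ℝ))) volume 0 r :=
    intervalIntegral.intervalIntegrable_rpow' (by norm_num)
  have hI : Integrable (fun x : ℝ => x ^ (-(1/2:ℝ))) (volume.restrict (Icc 0 r)) := by
    have := (intervalIntegrable_iff_integrableOn_Icc_of_le hr.le).mp hint
    exact this
  have hnn : 0 ≤ᵐ[volume.restrict (Icc (0:ℝ) r)] (fun x : ℝ => x ^ (-(1/2:ℝ))) := by
    filter_upwards [ae_restrict_mem measurableSet_Icc] with x hx
    exact Real.rpow_nonneg hx.1 _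
  have h1 := ofReal_integral_eq_lintegral_ofReal hI hnn
  have h2 : ∫ x in Icc (0:ℝ) r, x ^ (-(1/2:ℝ)) = 2 * r ^ (1/2 : ℝ) := by
    rw [integral_Icc_eq_integral_Ioc, ← intervalIntegral.integral_of_le hr.le,
      integral_rpow (Or.inl (by norm_num))]
    have e : (-(1/2:ℝ)) + 1 = 1/2 := by norm_num
    rw [e, Real.zero_rpow (by norm_num)]
    ring
  rw [h2] at h1
  exact h1.symm

lemma int_centre {r : ℝ} (hr : 0 < r) :
    ∫⁻ z in Icc (-r) r, h |z| ≤ ENNReal.ofReal (4 * r ^ (1/2 : ℝ)) := by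
  have hsub : Icc (-r) r ⊆ Icc (-r) 0 ∪ Icc 0 r := by
    intro z hz
    rcases le_total z 0 with h0 | h0
    · exact Or.inl ⟨hz.1, h0⟩
    · exact Or.inr ⟨h0, hz.2⟩
  have hright : ∫⁻ z in Icc (0:ℝ) r, h |z| = ENNReal.ofReal (2 * r ^ (1/2 : ℝ)) := by
    rw [← int_right hr]
    apply setLIntegral_congr_fun measurableSet_Icc
    intro z hz
    simp only [abs_of_nonneg hz.1]
  have hleft : ∫⁻ z in Icc (-r) (0:ℝ), h |z| = ENNReal.ofReal (2 * r ^ (1/2 : ℝ)) := by
    have hm : MeasurePreserving (fun x : ℝ => -x) volume volume := Measure.measurePreserving_neg volume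
    have hmeas : Measurable (fun z : ℝ => h |z|) := by
      have := measurable_habs 0
      simpa using this
    have e := hm.setLIntegral_comp_preimage (s := Icc (0:ℝ) r) measurableSet_Icc hmeas
    have epre : (fun x : ℝ => -x) ⁻¹' (Icc (0:ℝ) r) = Icc (-r) 0 := by
      ext x
      simp only [mem_preimage, mem_Icc]
      constructor
      · rintro ⟨a, b⟩; constructor <;> linarith
      · rintro ⟨a, b⟩; constructor <;> linarith
    rw [epre, hright] at e
    simp only [abs_neg] at e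
    exact e
  calc ∫⁻ z in Icc (-r) r, h |z| ≤ ∫⁻ z in Icc (-r) 0 ∪ Icc 0 r, h |z| :=
        lintegral_mono_set hsub
    _ ≤ (∫⁻ z in Icc (-r) 0, h |z|) + ∫⁻ z in Icc 0 r, h |z| := lintegral_union_le _ _ _
    _ = ENNReal.ofReal (4 * r ^ (1/2 : ℝ)) := by
        rw [hleft, hright, ← ENNReal.ofReal_add (by positivity) (by positivity)]
        congr 1
        ring

lemma int_sym (s : ℝ) {r : ℝ} (hr : 0 < r) :
    ∫⁻ z in Icc (s - r) (s + r), h |z - s| ≤ ENNReal.ofReal (4 * r ^ (1/2 : ℝ)) := by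
  have hm : MeasurePreserving (fun x : ℝ => x - s) volume volume :=
    measurePreserving_sub_right volume s
  have hmeas : Measurable (fun z : ℝ => h |z|) := by
    have := measurable_habs 0
    simpa using this
  have e := hm.setLIntegral_comp_preimage (s := Icc (-r) r) measurableSet_Icc hmeas
  have epre : (fun x : ℝ => x - s) ⁻¹' (Icc (-r) r) = Icc (s - r) (s + r) := by
    ext x
    simp only [mem_preimage, mem_Icc]
    constructor
    · rintro ⟨a, b⟩; constructor <;> linarith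
    · rintro ⟨a, b⟩; constructor <;> linarith
  rw [epre] at e
  rw [e]
  exact int_centre hr

lemma int_const (c : ℝ) {r : ℝ} (hr : 0 < r) :
    ∫⁻ _z in Icc (c - r) (c + r), h r = ENNReal.ofReal (2 * r ^ (1/2 : ℝ)) := by
  rw [lintegral_const, Measure.restrict_apply MeasurableSet.univ, univ_inter, Real.volume_Icc]
  unfold h
  rw [← ENNReal.ofReal_mul (by positivity)]
  congr 1
  have e : r ^ (1/2 : ℝ) = r ^ (-(1/2:ℝ)) * r := by
    nth_rewrite 3 [← Real.rpow_one r]
    rw [← Real.rpow_add hr]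
    norm_num
  rw [e]
  ring

lemma int_point (c s : ℝ) {r : ℝ} (hr : 0 < r) :
    ∫⁻ z in Icc (c - r) (c + r), h |z - s| ≤ ENNReal.ofReal (6 * r ^ (1/2 : ℝ)) := by
  have hpt : ∀ z : ℝ, h |z - s| ≤
      (Icc (s - r) (s + r)).indicator (fun z => h |z - s|) z + h r := by
    intro z
    by_cases hz : |z - s| ≤ r
    · have hz' : z ∈ Icc (s - r) (s + r) := by
        rw [abs_le] at hz
        constructor <;> linarith
      rw [indicator_of_mem hz']
      exact le_self_add
    · exact (h_anti hr (not_le.mp hz).le).trans le_add_self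
  calc ∫⁻ z in Icc (c - r) (c + r), h |z - s|
      ≤ ∫⁻ z in Icc (c - r) (c + r),
          ((Icc (s - r) (s + r)).indicator (fun z => h |z - s|) z + h r) :=
        lintegral_mono hpt
    _ = (∫⁻ z in Icc (c - r) (c + r), (Icc (s - r) (s + r)).indicator (fun z => h |z - s|) z)
          + ∫⁻ _z in Icc (c - r) (c + r), h r :=
        lintegral_add_right _ measurable_const
    _ ≤ ENNReal.ofReal (4 * r ^ (1/2 : ℝ)) + ENNReal.ofReal (2 * r ^ (1/2 : ℝ)) := by
        apply add_le_add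
        · calc ∫⁻ z in Icc (c - r) (c + r), (Icc (s - r) (s + r)).indicator (fun z => h |z - s|) z
              ≤ ∫⁻ z, (Icc (s - r) (s + r)).indicator (fun z => h |z - s|) z :=
                setLIntegral_le_lintegral _ _
            _ = ∫⁻ z in Icc (s - r) (s + r), h |z - s| := lintegral_indicator measurableSet_Icc _
            _ ≤ _ := int_sym s hr
        · exact (int_const c hr).le
    _ = ENNReal.ofReal (6 * r ^ (1/2 : ℝ)) := by
        rw [← ENNReal.ofReal_add (by positivity) (by positivity)]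
        congr 1
        ring

/-- The shell `2^k ≤ |z| ≤ 2^(k+1)`. -/
def T (k : ℤ) : Set ℝ := {z | (2:ℝ) ^ k ≤ |z| ∧ |z| ≤ (2:ℝ) ^ (k + 1)}

lemma abs_cases {s : ℝ} (hs : s ∈ S) (k : ℤ) : |s| ≤ (2:ℝ) ^ k ∨ (2:ℝ) ^ (k + 1) ≤ |s| := by
  rcases hs with rfl | ⟨l, hl⟩
  · left; rw [abs_zero]; positivity
  · rw [hl]
    rcases le_or_gt l k with h1 | h1
    · left; exact zpow_le_zpow_right₀ (by norm_num) h1
    · right; exact zpow_le_zpow_right₀ (by norm_num) (by omega)

lemma dist_ge {z : ℝ} {k : ℤ} (hz : z ∈ T k) :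
    min (|z| - (2:ℝ) ^ k) ((2:ℝ) ^ (k + 1) - |z|) ≤ infDist z S := by
  rw [le_infDist nonempty_S]
  intro s hs
  rw [Real.dist_eq]
  have h1 : |z| - |s| ≤ |z - s| := abs_sub_abs_le_abs_sub z s
  have h2 : |s| - |z| ≤ |z - s| := by
    rw [abs_sub_comm]; exact abs_sub_abs_le_abs_sub s z
  rcases abs_cases hs k with h3 | h3
  · exact (min_le_left _ _).trans (by linarith)
  · exact (min_le_right _ _).trans (by linarith)

lemma w_of_mem {z : ℝ} (hz : z ∈ S) : w z = 0 := by
  unfold w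
  rw [infDist_zero_of_mem hz, h_zero]

lemma w_le {z : ℝ} {k : ℤ} (hz : z ∈ T k) :
    w z ≤ h (|z| - (2:ℝ) ^ k) + h ((2:ℝ) ^ (k + 1) - |z|) := by
  by_cases ha : |z| = (2:ℝ) ^ k
  · rw [w_of_mem (Or.inr ⟨k, ha⟩)]; exact zero_le
  by_cases hb : |z| = (2:ℝ) ^ (k + 1)
  · rw [w_of_mem (Or.inr ⟨k + 1, hb⟩)]; exact zero_le
  have ha' : 0 < |z| - (2:ℝ) ^ k := by
    have := lt_of_le_of_ne hz.1 (Ne.symm ha)
    linarith
  have hb' : 0 < (2:ℝ) ^ (k + 1) - |z| := by
    have := lt_of_le_of_ne hz.2 hb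
    linarith
  have hd := dist_ge hz
  rcases min_cases (|z| - (2:ℝ) ^ k) ((2:ℝ) ^ (k + 1) - |z|) with ⟨e, _⟩ | ⟨e, _⟩
  · rw [e] at hd
    exact (h_anti ha' hd).trans le_self_add
  · rw [e] at hd
    exact (h_anti hb' hd).trans le_add_self

lemma two_zpow_add_one (k : ℤ) : (2:ℝ) ^ (k + 1) = 2 * (2:ℝ) ^ k := by
  rw [zpow_add₀ (by norm_num), zpow_one]; ring

lemma int_T (k : ℤ) :
    ∫⁻ z in T k, w z ≤ ENNReal.ofReal (24 * ((2:ℝ) ^ (k - 1)) ^ (1/2 : ℝ)) := by
  set r : ℝ := (2:ℝ) ^ (k - 1) with hr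
  have hr0 : 0 < r := by positivity
  have e1 : (2:ℝ) ^ k = 2 * r := by
    have := two_zpow_add_one (k - 1)
    rw [sub_add_cancel] at this
    rw [this]
  have e2 : (2:ℝ) ^ (k + 1) = 4 * r := by
    rw [two_zpow_add_one, e1]; ring
  have hsub : T k ⊆ Icc (3 * r - r) (3 * r + r) ∪ Icc (-(3 * r) - r) (-(3 * r) + r) := by
    intro z hz
    obtain ⟨h1, h2⟩ := hz
    rw [e1] at h1
    rw [e2] at h2
    rcases le_total 0 z with h0 | h0
    · rw [abs_of_nonneg h0] at h1 h2
      left; constructor <;> linarith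
    · rw [abs_of_nonpos h0] at h1 h2
      right; constructor <;> linarith
  have hP : ∫⁻ z in Icc (3 * r - r) (3 * r + r), w z ≤ ENNReal.ofReal (12 * r ^ (1/2 : ℝ)) := by
    calc ∫⁻ z in Icc (3 * r - r) (3 * r + r), w z
        ≤ ∫⁻ z in Icc (3 * r - r) (3 * r + r), (h |z - 2 * r| + h |z - 4 * r|) := by
          apply setLIntegral_mono ((measurable_habs _).add (measurable_habs _))
          intro z hz
          have h0 : 0 ≤ z := by linarith [hz.1]
          have hT : z ∈ T k := by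
            refine ⟨?_, ?_⟩
            · rw [e1, abs_of_nonneg h0]; linarith [hz.1]
            · rw [e2, abs_of_nonneg h0]; linarith [hz.2]
          have := w_le hT
          rw [e1, e2, abs_of_nonneg h0] at this
          have a1 : |z - 2 * r| = z - 2 * r := abs_of_nonneg (by linarith [hz.1])
          have a2 : |z - 4 * r| = 4 * r - z := by
            rw [abs_of_nonpos (by linarith [hz.2])]; ring
          change w z ≤ h |z - 2 * r| + h |z - 4 * r|
          rw [a1, a2]
          exact this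
      _ = (∫⁻ z in Icc (3 * r - r) (3 * r + r), h |z - 2 * r|)
            + ∫⁻ z in Icc (3 * r - r) (3 * r + r), h |z - 4 * r| :=
          lintegral_add_right _ (measurable_habs _)
      _ ≤ ENNReal.ofReal (6 * r ^ (1/2 : ℝ)) + ENNReal.ofReal (6 * r ^ (1/2 : ℝ)) :=
          add_le_add (int_point _ _ hr0) (int_point _ _ hr0)
      _ = ENNReal.ofReal (12 * r ^ (1/2 : ℝ)) := by
          rw [← ENNReal.ofReal_add (by positivity) (by positivity)]
          congr 1; ring
  have hN : ∫⁻ z in Icc (-(3 * r) - r) (-(3 * r) + r), w z ≤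
      ENNReal.ofReal (12 * r ^ (1/2 : ℝ)) := by
    calc ∫⁻ z in Icc (-(3 * r) - r) (-(3 * r) + r), w z
        ≤ ∫⁻ z in Icc (-(3 * r) - r) (-(3 * r) + r),
            (h |z - -(2 * r)| + h |z - -(4 * r)|) := by
          apply setLIntegral_mono ((measurable_habs _).add (measurable_habs _))
          intro z hz
          have h0 : z ≤ 0 := by linarith [hz.2]
          have hT : z ∈ T k := by
            refine ⟨?_, ?_⟩
            · rw [e1, abs_of_nonpos h0]; linarith [hz.2]
            · rw [e2, abs_of_nonpos h0]; linarith [hz.1]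
          have := w_le hT
          rw [e1, e2, abs_of_nonpos h0] at this
          have a1 : |z - -(2 * r)| = -z - 2 * r := by
            rw [abs_of_nonpos (by linarith [hz.2])]; ring
          have a2 : |z - -(4 * r)| = 4 * r - -z := by
            rw [abs_of_nonneg (by linarith [hz.1])]; ring
          change w z ≤ h |z - -(2 * r)| + h |z - -(4 * r)|
          rw [a1, a2]
          exact this
      _ = (∫⁻ z in Icc (-(3 * r) - r) (-(3 * r) + r), h |z - -(2 * r)|)
            + ∫⁻ z in Icc (-(3 * r) - r) (-(3 * r) + r), h |z - -(4 * r)| :=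
          lintegral_add_right _ (measurable_habs _)
      _ ≤ ENNReal.ofReal (6 * r ^ (1/2 : ℝ)) + ENNReal.ofReal (6 * r ^ (1/2 : ℝ)) :=
          add_le_add (int_point _ _ hr0) (int_point _ _ hr0)
      _ = ENNReal.ofReal (12 * r ^ (1/2 : ℝ)) := by
          rw [← ENNReal.ofReal_add (by positivity) (by positivity)]
          congr 1; ring
  calc ∫⁻ z in T k, w z
      ≤ ∫⁻ z in Icc (3 * r - r) (3 * r + r) ∪ Icc (-(3 * r) - r) (-(3 * r) + r), w z :=
        lintegral_mono_set hsub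
    _ ≤ (∫⁻ z in Icc (3 * r - r) (3 * r + r), w z)
          + ∫⁻ z in Icc (-(3 * r) - r) (-(3 * r) + r), w z := lintegral_union_le _ _ _
    _ ≤ ENNReal.ofReal (12 * r ^ (1/2 : ℝ)) + ENNReal.ofReal (12 * r ^ (1/2 : ℝ)) :=
        add_le_add hP hN
    _ = ENNReal.ofReal (24 * r ^ (1/2 : ℝ)) := by
        rw [← ENNReal.ofReal_add (by positivity) (by positivity)]
        congr 1; ring

lemma exists_shell {z : ℝ} (hz : z ≠ 0) : ∃ k : ℤ, (2:ℝ) ^ k ≤ |z| ∧ |z| < (2:ℝ) ^ (k + 1) := by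
  obtain ⟨k, hk⟩ := exists_mem_Ico_zpow (x := |z|) (y := (2:ℝ)) (abs_pos.mpr hz) (by norm_num)
  exact ⟨k, hk.1, hk.2⟩

/-- the ratio of the geometric series -/
noncomputable def q : ℝ := (1/2 : ℝ) ^ (1/2 : ℝ)

lemma q_nonneg : 0 ≤ q := by unfold q; positivity

lemma q_sq : q * q = 1/2 := by
  unfold q
  rw [← Real.rpow_add (by norm_num)]
  norm_num

lemma q_le : q ≤ 3/4 := by
  have := q_sq
  nlinarith [q_nonneg]

lemma pow_shell (N : ℤ) (j : ℕ) :
    ((2:ℝ) ^ (N - 1 - j - 1)) ^ (1/2 : ℝ) = ((2:ℝ) ^ (N - 2)) ^ (1/2 : ℝ) * q ^ j := by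
  have e : (2:ℝ) ^ (N - 1 - j - 1) = (2:ℝ) ^ (N - 2) * (1/2 : ℝ) ^ j := by
    have : N - 1 - (j:ℤ) - 1 = (N - 2) + (-(j:ℤ)) := by ring
    rw [this, zpow_add₀ (by norm_num), zpow_neg, zpow_natCast]
    congr 1
    rw [one_div, inv_pow]
  rw [e, Real.mul_rpow (by positivity) (by positivity)]
  congr 1
  unfold q
  rw [← Real.rpow_natCast, ← Real.rpow_natCast, ← Real.rpow_mul (by norm_num),
    ← Real.rpow_mul (by norm_num)]
  congr 1
  ring

lemma int_ball (N : ℤ) :
    ∫⁻ z in Icc (-(2:ℝ) ^ N) ((2:ℝ) ^ N), w z ≤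
      ENNReal.ofReal (96 * ((2:ℝ) ^ (N - 2)) ^ (1/2 : ℝ)) := by
  have hsub : Icc (-(2:ℝ) ^ N) ((2:ℝ) ^ N) ⊆ {0} ∪ ⋃ j : ℕ, T (N - 1 - j) := by
    intro z hz
    by_cases h0 : z = 0
    · exact Or.inl h0
    right
    have habs : |z| ≤ (2:ℝ) ^ N := abs_le.mpr hz
    by_cases hN : |z| = (2:ℝ) ^ N
    · rw [mem_iUnion]
      refine ⟨0, ?_, ?_⟩
      · rw [hN]; exact zpow_le_zpow_right₀ (by norm_num) (by push_cast; omega)
      · rw [hN]; exact zpow_le_zpow_right₀ (by norm_num) (by push_cast; omega)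
    obtain ⟨k, hk1, hk2⟩ := exists_shell h0
    have hkN : k < N := by
      have : (2:ℝ) ^ k < (2:ℝ) ^ N := lt_of_le_of_lt hk1 (lt_of_le_of_ne habs hN)
      exact (zpow_lt_zpow_iff_right₀ (by norm_num)).mp this
    rw [mem_iUnion]
    refine ⟨(N - 1 - k).toNat, ?_⟩
    have e : N - 1 - ((N - 1 - k).toNat : ℤ) = k := by
      rw [Int.toNat_of_nonneg (by omega)]; ring
    rw [e]
    exact ⟨hk1, hk2.le⟩
  have hz0 : ∫⁻ z in ({0} : Set ℝ), w z = 0 := by
    rw [Measure.restrict_eq_zero.mpr (by simp)]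
    simp
  calc ∫⁻ z in Icc (-(2:ℝ) ^ N) ((2:ℝ) ^ N), w z
      ≤ ∫⁻ z in {0} ∪ ⋃ j : ℕ, T (N - 1 - j), w z := lintegral_mono_set hsub
    _ ≤ (∫⁻ z in ({0} : Set ℝ), w z) + ∫⁻ z in ⋃ j : ℕ, T (N - 1 - j), w z :=
        lintegral_union_le _ _ _
    _ ≤ 0 + ∑' j : ℕ, ∫⁻ z in T (N - 1 - j), w z := by
        rw [hz0]
        exact add_le_add le_rfl (lintegral_iUnion_le _ _)
    _ = ∑' j : ℕ, ∫⁻ z in T (N - 1 - j), w z := zero_add _
    _ ≤ ∑' j : ℕ, ENNReal.ofReal (24 * ((2:ℝ) ^ (N - 2)) ^ (1/2 : ℝ) * q ^ j) := by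
        apply ENNReal.tsum_le_tsum
        intro j
        refine (int_T (N - 1 - j)).trans (le_of_eq ?_)
        rw [pow_shell N j]
        congr 1
        ring
    _ = ENNReal.ofReal (∑' j : ℕ, 24 * ((2:ℝ) ^ (N - 2)) ^ (1/2 : ℝ) * q ^ j) := by
        rw [ENNReal.ofReal_tsum_of_nonneg]
        · intro j
          have := q_nonneg
          positivity
        · exact (summable_geometric_of_lt_one q_nonneg (by linarith [q_le])).mul_left _
    _ ≤ ENNReal.ofReal (96 * ((2:ℝ) ^ (N - 2)) ^ (1/2 : ℝ)) := by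
        apply ENNReal.ofReal_le_ofReal
        rw [tsum_mul_left, tsum_geometric_of_lt_one q_nonneg (by linarith [q_le])]
        have h1 : (1 - q)⁻¹ ≤ 4 := by
          rw [inv_le_comm₀ (by linarith [q_le]) (by norm_num)]
          have := q_le
          norm_num
          linarith
        have h2 : 0 ≤ 24 * ((2:ℝ) ^ (N - 2)) ^ (1/2 : ℝ) := by positivity
        nlinarith

/-- Far from the origin an interval of radius `ρ` meets the `ρ`-neighbourhood of one point of `S`
only. -/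
lemma int_far {y ρ : ℝ} (hρ : 0 < ρ) (hy : 8 * ρ < |y|) :
    ∫⁻ z in Icc (y - ρ) (y + ρ), w z ≤ ENNReal.ofReal (8 * ρ ^ (1/2 : ℝ)) := by
  have huniq : ∀ s ∈ S, ∀ t ∈ S, |s - y| < 2 * ρ → |t - y| < 2 * ρ → s = t := by
    have main : ∀ s ∈ S, ∀ t ∈ S, |s - y| < 2 * ρ → |t - y| < 2 * ρ → |s| ≤ |t| → s = t := by
      intro s hs t ht h1 h2 hst
      have hs6 : 6 * ρ < |s| := by
        have := abs_sub_abs_le_abs_sub y s
        rw [abs_sub_comm y s] at this
        linarith
      have hd : |t - s| < 4 * ρ := by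
        have := abs_sub_le t y s
        rw [abs_sub_comm y s] at this
        linarith
      have hs0 : s ≠ 0 := by
        rintro rfl
        rw [abs_zero] at hs6
        linarith
      rcases hs with h0 | ⟨k, hk⟩
      · exact absurd h0 hs0
      have habs : |t| = |s| := by
        rcases abs_cases ht k with h3 | h3
        · rw [← hk] at h3
          exact le_antisymm h3 hst
        · exfalso
          rw [two_zpow_add_one, ← hk] at h3
          have := abs_sub_abs_le_abs_sub t s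
          linarith
      rcases abs_eq_abs.mp habs with h4 | h4
      · exact h4.symm
      · exfalso
        rw [h4] at hd
        have : |(-s) - s| = 2 * |s| := by
          rw [show (-s) - s = (-2) * s by ring, abs_mul]
          norm_num
        rw [this] at hd
        linarith
    intro s hs t ht h1 h2
    rcases le_total |s| |t| with h3 | h3
    · exact main s hs t ht h1 h2 h3
    · exact (main t ht s hs h2 h1 h3).symm
  have hex : ∃ s0 : ℝ, ∀ z ∈ Icc (y - ρ) (y + ρ), w z ≤ h |z - s0| + h ρ := by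
    by_cases hc : ∃ s ∈ S, |s - y| < 2 * ρ
    · obtain ⟨s0, hs0, hs0y⟩ := hc
      refine ⟨s0, ?_⟩
      intro z hz
      by_cases hd : infDist z S < ρ
      · by_cases hzz : z ∈ S
        · rw [w_of_mem hzz]; exact zero_le
        have hzy : |z - y| ≤ ρ := by
          rw [abs_le]; constructor <;> linarith [hz.1, hz.2]
        have hge : |z - s0| ≤ infDist z S := by
          by_contra hcon
          push Not at hcon
          have hlt : infDist z S < min ρ |z - s0| := lt_min hd hcon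
          obtain ⟨s, hs, hsd⟩ := (infDist_lt_iff nonempty_S).mp hlt
          rw [Real.dist_eq] at hsd
          have hs1 : |z - s| < ρ := lt_of_lt_of_le hsd (min_le_left _ _)
          have hs2 : |z - s| < |z - s0| := lt_of_lt_of_le hsd (min_le_right _ _)
          have hsy : |s - y| < 2 * ρ := by
            have := abs_sub_le s z y
            rw [abs_sub_comm s z] at this
            linarith
          have := huniq s hs s0 hs0 hsy hs0y
          rw [this] at hs2
          exact lt_irrefl _ hs2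
        have hpos : 0 < |z - s0| := by
          apply abs_pos.mpr
          intro h0
          apply hzz
          have : z = s0 := by linarith
          rw [this]; exact hs0
        exact (h_anti hpos hge).trans le_self_add
      · push Not at hd
        exact (h_anti hρ hd).trans le_add_self
    · push Not at hc
      refine ⟨0, ?_⟩
      intro z hz
      have hzy : |z - y| ≤ ρ := by
        rw [abs_le]; constructor <;> linarith [hz.1, hz.2]
      have hd : ρ ≤ infDist z S := by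
        rw [le_infDist nonempty_S]
        intro s hs
        rw [Real.dist_eq]
        have h1 := hc s hs
        have := abs_sub_le s z y
        rw [abs_sub_comm s z] at this
        linarith
      exact (h_anti hρ hd).trans le_add_self
  obtain ⟨s0, hs0⟩ := hex
  calc ∫⁻ z in Icc (y - ρ) (y + ρ), w z
      ≤ ∫⁻ z in Icc (y - ρ) (y + ρ), (h |z - s0| + h ρ) := by
        apply setLIntegral_mono ((measurable_habs _).add measurable_const)
        exact hs0
    _ = (∫⁻ z in Icc (y - ρ) (y + ρ), h |z - s0|) + ∫⁻ _z in Icc (y - ρ) (y + ρ), h ρ :=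
        lintegral_add_right _ measurable_const
    _ ≤ ENNReal.ofReal (6 * ρ ^ (1/2 : ℝ)) + ENNReal.ofReal (2 * ρ ^ (1/2 : ℝ)) :=
        add_le_add (int_point _ _ hρ) (int_const _ hρ).le
    _ = ENNReal.ofReal (8 * ρ ^ (1/2 : ℝ)) := by
        rw [← ENNReal.ofReal_add (by positivity) (by positivity)]
        congr 1; ring

lemma int_near {y ρ : ℝ} (hρ : 0 < ρ) (hy : |y| ≤ 8 * ρ) :
    ∫⁻ z in Icc (y - ρ) (y + ρ), w z ≤ ENNReal.ofReal (288 * ρ ^ (1/2 : ℝ)) := by
  obtain ⟨m, hm1, hm2⟩ := exists_shell hρ.ne'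
  rw [abs_of_pos hρ] at hm1 hm2
  have e5 : (2:ℝ) ^ (m + 5) = 32 * (2:ℝ) ^ m := by
    rw [zpow_add₀ (by norm_num)]; norm_num; ring
  have e3 : (2:ℝ) ^ (m + 5 - 2) = 8 * (2:ℝ) ^ m := by
    rw [show m + 5 - 2 = m + 3 by ring, zpow_add₀ (by norm_num)]; norm_num; ring
  rw [two_zpow_add_one] at hm2
  have hsub : Icc (y - ρ) (y + ρ) ⊆ Icc (-(2:ℝ) ^ (m + 5)) ((2:ℝ) ^ (m + 5)) := by
    intro z hz
    rw [e5]
    rw [abs_le] at hy
    constructor
    · linarith [hz.1, hy.1]
    · linarith [hz.2, hy.2]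
  refine ((lintegral_mono_set hsub).trans (int_ball (m + 5))).trans ?_
  apply ENNReal.ofReal_le_ofReal
  rw [e3]
  have h1 : (8 * (2:ℝ) ^ m) ^ (1/2 : ℝ) ≤ 3 * ρ ^ (1/2 : ℝ) := by
    have h9 : (3:ℝ) = 9 ^ (1/2 : ℝ) := by
      rw [show (9:ℝ) = 3 ^ (2:ℝ) by norm_num, ← Real.rpow_mul (by norm_num)]
      norm_num
    rw [h9, ← Real.mul_rpow (by norm_num) hρ.le]
    apply Real.rpow_le_rpow (by positivity) _ (by norm_num)
    linarith
  linarith

/-- Aikawa condition with exponent `1/2` for the dyadic set `S`. -/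
theorem lac : ∃ K : ℝ, 0 ≤ K ∧ ∀ y ρ : ℝ, 0 < ρ → Metric.infDist y S ≤ ρ →
    ∫⁻ z in Set.Icc (y - ρ) (y + ρ), ENNReal.ofReal (Metric.infDist z S ^ (-(1/2 : ℝ))) ≤
      ENNReal.ofReal (K * ρ ^ (1 - (1/2 : ℝ))) := by
  refine ⟨288, by norm_num, ?_⟩
  intro y ρ hρ _
  have e : (1 - (1/2 : ℝ)) = 1/2 := by norm_num
  rw [e]
  change ∫⁻ z in Set.Icc (y - ρ) (y + ρ), w z ≤ _
  rcases le_or_gt |y| (8 * ρ) with h1 | h1
  · exact int_near hρ h1
  · refine (int_far hρ h1).trans (ENNReal.ofReal_le_ofReal ?_)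
    have : 0 ≤ ρ ^ (1/2 : ℝ) := by positivity
    linarith

theorem isClosed_S : IsClosed S := by
  rw [← isOpen_compl_iff, Metric.isOpen_iff]
  intro x hx
  have hx0 : x ≠ 0 := fun h0 => hx (Or.inl h0)
  obtain ⟨k, hk1, hk2⟩ := exists_shell hx0
  have hk3 : (2:ℝ) ^ k < |x| := lt_of_le_of_ne hk1 (fun h1 => hx (Or.inr ⟨k, h1.symm⟩))
  refine ⟨min (|x| - (2:ℝ) ^ k) ((2:ℝ) ^ (k + 1) - |x|), lt_min (by linarith) (by linarith), ?_⟩
  intro z hz hzS
  rw [mem_ball, Real.dist_eq] at hz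
  have h1 := lt_of_lt_of_le hz (min_le_left _ _)
  have h2 := lt_of_lt_of_le hz (min_le_right _ _)
  have h3 : |x| - |z| ≤ |z - x| := by
    rw [abs_sub_comm]; exact abs_sub_abs_le_abs_sub x z
  have h4 : |z| - |x| ≤ |z - x| := abs_sub_abs_le_abs_sub z x
  rcases abs_cases hzS k with h5 | h5 <;> linarith

theorem countable_S : S.Countable := by
  have hsub : S ⊆ ({0} ∪ range (fun k : ℤ => (2:ℝ) ^ k)) ∪ range (fun k : ℤ => -(2:ℝ) ^ k) := by
    intro x hx
    rcases hx with h0 | ⟨k, hk⟩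
    · exact Or.inl (Or.inl h0)
    · rcases le_total 0 x with h1 | h1
      · rw [abs_of_nonneg h1] at hk
        exact Or.inl (Or.inr ⟨k, hk.symm⟩)
      · rw [abs_of_nonpos h1] at hk
        exact Or.inr ⟨k, by simp only; linarith⟩
  exact (((countable_singleton 0).union (countable_range _)).union (countable_range _)).mono hsub

theorem volume_S : volume S = 0 := countable_S.measure_zero volume

end Vale.Agent.P141.R2.H792.Lac
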